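import Crest.Agent.Lib.QEnt.Basic
import Crest.Agent.R331.FD

/-!
# Row 331, limit pieces: zero padding, adding a multiple of the identity, the Gibbs bound
-/

set_option autoImplicit false

namespace Crest.Agent.R331.Lim

open Matrix Crest.Agent.Lib.QEnt Crest.MathPhysics.Bosonic
open scoped ComplexOrder

/-- Conjugating by an isometry does not change a trace function with `g 0 = 0`. -/
theorem trf_pad {α β : Type*} [Fintype α] [DecidableEq α] [Fintype β] [DecidableEq β]
    (E : Matrix β α ℂ) (hE : Eᴴ * E = 1) (ρ : Matrix α α ℂ) (g : ℝ → ℝ) (hg : g 0 = 0) :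
    trf g (E * ρ * Eᴴ) = trf g ρ := by
  have h := Matrix.charpoly_mul_comm' (E * ρ) Eᴴ
  rw [← Matrix.mul_assoc Eᴴ, hE, Matrix.one_mul] at h
  have h1 := congrArg (fun p : Polynomial ℂ => (p.roots.map (fun z => g z.re)).sum) h
  have hX : ∀ k : ℕ, (Polynomial.X ^ k : Polynomial ℂ) ≠ 0 := fun k =>
    pow_ne_zero _ Polynomial.X_ne_zero
  rw [Polynomial.roots_mul (mul_ne_zero (hX _) (Matrix.charpoly_monic _).ne_zero),
    Polynomial.roots_mul (mul_ne_zero (hX _) (Matrix.charpoly_monic _).ne_zero),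
    Polynomial.roots_X_pow, Polynomial.roots_X_pow] at h1
  simpa [trf, hg, Multiset.map_nsmul, Multiset.sum_nsmul] using h1

theorem N_pad {α β : Type*} [Fintype α] [DecidableEq α] [Fintype β] [DecidableEq β]
    (E : Matrix β α ℂ) (hE : Eᴴ * E = 1) (ρ : Matrix α α ℂ) : N (E * ρ * Eᴴ) = N ρ :=
  trf_pad E hE ρ _ (by simp)

/-- The isometry of an injection of index types. -/
def inc {α β : Type*} [DecidableEq β] (e : α → β) : Matrix β α ℂ :=
  fun b a => if e a = b then 1 else 0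

theorem inc_iso {α β : Type*} [Fintype β] [DecidableEq α] [DecidableEq β] {e : α → β}
    (he : Function.Injective e) : (inc e)ᴴ * inc e = 1 := by
  ext a a'
  simp only [Matrix.mul_apply, conjTranspose_apply, inc, one_apply]
  rw [Finset.sum_eq_single (e a)]
  · by_cases h : a = a'
    · subst h; simp
    · have : e a' ≠ e a := fun h' => h (he h').symm
      simp [h, this]
  · intro b _ hb
    simp [Ne.symm hb]
  · simp

theorem pad_apply_img {α β : Type*} [Fintype α] [DecidableEq β] {e : α → β}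
    (he : Function.Injective e) (ρ : Matrix α α ℂ) (a a' : α) :
    (inc e * ρ * (inc e)ᴴ) (e a) (e a') = ρ a a' := by
  classical
  simp only [Matrix.mul_apply, conjTranspose_apply, inc]
  rw [Finset.sum_eq_single a']
  · rw [Finset.sum_eq_single a]
    · simp
    · intro b _ hb
      have : e b ≠ e a := fun h => hb (he h)
      simp [this]
    · simp
  · intro b _ hb
    have : e b ≠ e a' := fun h => hb (he h)
    simp [this]
  · simp

theorem pad_apply_left {α β : Type*} [Fintype α] [DecidableEq β] {e : α → β}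
    (ρ : Matrix α α ℂ) {b : β} (hb : ∀ a, e a ≠ b) (b' : β) :
    (inc e * ρ * (inc e)ᴴ) b b' = 0 := by
  simp [Matrix.mul_apply, inc, hb]

theorem pad_apply_right {α β : Type*} [Fintype α] [DecidableEq β] {e : α → β}
    (ρ : Matrix α α ℂ) (b : β) {b' : β} (hb : ∀ a, e a ≠ b') :
    (inc e * ρ * (inc e)ᴴ) b b' = 0 := by
  simp [Matrix.mul_apply, inc, hb]

/-- A matrix on `β` which vanishes off the image of `e` is the padding of its restriction. -/
theorem eq_pad {α β : Type*} [Fintype α] [DecidableEq β] {e : α → β}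
    (he : Function.Injective e) (ρ : Matrix α α ℂ) (σ : Matrix β β ℂ)
    (h1 : ∀ a a', σ (e a) (e a') = ρ a a')
    (h2 : ∀ b b', (∀ a, e a ≠ b) → σ b b' = 0) (h3 : ∀ b b', (∀ a, e a ≠ b') → σ b b' = 0) :
    σ = inc e * ρ * (inc e)ᴴ := by
  ext b b'
  by_cases hb : ∃ a, e a = b
  · obtain ⟨a, rfl⟩ := hb
    by_cases hb' : ∃ a', e a' = b'
    · obtain ⟨a', rfl⟩ := hb'
      rw [pad_apply_img he, h1]
    · push Not at hb'
      rw [pad_apply_right ρ _ hb', h3 _ _ hb']
  · push Not at hb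
    rw [pad_apply_left ρ hb, h2 _ _ hb]

theorem pad_psd {α β : Type*} [Fintype α] [Fintype β] (E : Matrix β α ℂ) {ρ : Matrix α α ℂ}
    (h : ρ.PosSemidef) : (E * ρ * Eᴴ).PosSemidef := h.mul_mul_conjTranspose_same E

theorem pad_trace {α β : Type*} [Fintype α] [DecidableEq α] [Fintype β] (E : Matrix β α ℂ)
    (hE : Eᴴ * E = 1) (ρ : Matrix α α ℂ) : (E * ρ * Eᴴ).trace = ρ.trace := by
  rw [trace_mul_comm, ← Matrix.mul_assoc, hE, Matrix.one_mul]

/-- Diagonal weights of a padded matrix. -/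
theorem sum_diag_pad {α β : Type*} [Fintype α] [Fintype β] [DecidableEq β] {e : α → β}
    (he : Function.Injective e) (ρ : Matrix α α ℂ) (w : β → ℝ) :
    ∑ b, w b * ((inc e * ρ * (inc e)ᴴ) b b).re = ∑ a, w (e a) * (ρ a a).re := by
  classical
  rw [← Finset.sum_subset (Finset.subset_univ (Finset.univ.image e))]
  · rw [Finset.sum_image (fun a _ b _ h => he h)]
    simp [pad_apply_img he]
  · intro b _ hb
    rw [pad_apply_left ρ (fun a h => hb (Finset.mem_image.2 ⟨a, Finset.mem_univ _, h⟩))]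
    simp

theorem neg_mul_log_add_le {p θ : ℝ} (hp : 0 ≤ p) (hθ : 0 ≤ θ) :
    p * Real.log p + θ * Real.log θ ≤ (θ + p) * Real.log (θ + p) := by
  have h1 : p * Real.log p ≤ p * Real.log (θ + p) := by
    rcases hp.eq_or_lt with h | h
    · simp [← h]
    · exact mul_le_mul_of_nonneg_left (Real.log_le_log h (by linarith)) hp
  have h2 : θ * Real.log θ ≤ θ * Real.log (θ + p) := by
    rcases hθ.eq_or_lt with h | h
    · simp [← h]
    · exact mul_le_mul_of_nonneg_left (Real.log_le_log h (by linarith)) hθ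
  nlinarith

/-- `S(θ + ρ) ≤ S(ρ) + dim · (-θ log θ)`. -/
theorem N_add_smul_one_ge {α : Type*} [Fintype α] [DecidableEq α] {ρ : Matrix α α ℂ}
    (hρ : ρ.PosSemidef) {θ : ℝ} (hθ : 0 ≤ θ) :
    N ρ + Fintype.card α * (θ * Real.log θ) ≤ N ((θ : ℂ) • (1 : Matrix α α ℂ) + ρ) := by
  obtain ⟨U, l, h⟩ := exists_isDiag hρ.isHermitian
  rw [h.N, (h.add_smul_one θ).N]
  have : (Fintype.card α : ℝ) * (θ * Real.log θ) = ∑ _i : α, θ * Real.log θ := by simp
  rw [this, ← Finset.sum_add_distrib]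
  exact Finset.sum_le_sum fun i _ => neg_mul_log_add_le (h.nonneg hρ i) hθ

/-- Tangent inequality for `-x log x`. -/
theorem neg_mul_log_le {x : ℝ} (hx : 0 ≤ x) (y : ℝ) :
    -(x * Real.log x) ≤ x * y + Real.exp (-y) - x := by
  rcases hx.eq_or_lt with h | h
  · simp [← h, (Real.exp_pos _).le]
  · have h1 : Real.log (Real.exp (-y) / x) ≤ Real.exp (-y) / x - 1 :=
      Real.log_le_sub_one_of_pos (div_pos (Real.exp_pos _) h)
    rw [Real.log_div (Real.exp_pos _).ne' h.ne', Real.log_exp] at h1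
    have h2 := mul_le_mul_of_nonneg_left h1 hx
    have h3 : x * (Real.exp (-y) / x - 1) = Real.exp (-y) - x := by field_simp
    nlinarith

/-- Entropy against any diagonal weights. -/
theorem neg_N_le_diag {α : Type*} [Fintype α] [DecidableEq α] {ρ : Matrix α α ℂ}
    (hρ : ρ.PosSemidef) (y : α → ℝ) :
    -N ρ ≤ ∑ k, y k * (ρ k k).re + ∑ k, Real.exp (-y k) - ρ.trace.re := by
  have h := sum_dg_log_le_N (V := (1 : Matrix α α ℂ)) hρ (by simp)
  have hd : ∀ k, dg (1 : Matrix α α ℂ) ρ k = (ρ k k).re := fun k => by simp [dg]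
  simp only [hd] at h
  have ht : ρ.trace.re = ∑ k, (ρ k k).re := by simp [Matrix.trace, Complex.re_sum]
  rw [ht, ← Finset.sum_add_distrib, ← Finset.sum_sub_distrib]
  have : -∑ k, (ρ k k).re * Real.log (ρ k k).re ≤
      ∑ k, (y k * (ρ k k).re + Real.exp (-y k) - (ρ k k).re) := by
    rw [← Finset.sum_neg_distrib]
    refine Finset.sum_le_sum fun k _ => ?_
    have h0 : 0 ≤ (ρ k k).re := by rw [← hd]; exact dg_nonneg _ hρ k
    have := neg_mul_log_le h0 (y k)
    linarith
  linarith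

/-- Geometric sums over a finite set of occupation tuples. -/
theorem sum_pow_occ_le {n : ℕ} {α : Type*} [Fintype α] {e : α → Occ n}
    (he : Function.Injective e) {q : ℝ} (hq0 : 0 ≤ q) (hq1 : q < 1) :
    ∑ a, q ^ (∑ j, e a j) ≤ (1 - q)⁻¹ ^ n := by
  classical
  obtain ⟨M, hM⟩ : ∃ M : ℕ, ∀ a j, e a j < M := by
    refine ⟨(Finset.univ.sup fun p : α × Fin n => e p.1 p.2) + 1, fun a j => ?_⟩
    exact Nat.lt_succ_of_le (Finset.le_sup (f := fun p : α × Fin n => e p.1 p.2)
      (Finset.mem_univ (a, j)))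
  have h1 : ∑ a, q ^ (∑ j, e a j) = ∑ k ∈ Finset.univ.image e, ∏ j, q ^ k j := by
    rw [Finset.sum_image (fun a _ b _ h => he h)]
    simp [Finset.prod_pow_eq_pow_sum]
  have h2 : ∑ k ∈ Finset.univ.image e, ∏ j, q ^ k j ≤
      ∑ k ∈ Fintype.piFinset (fun _ : Fin n => Finset.range M), ∏ j, q ^ k j := by
    refine Finset.sum_le_sum_of_subset_of_nonneg ?_ fun k _ _ =>
      Finset.prod_nonneg fun j _ => pow_nonneg hq0 _
    intro k hk
    obtain ⟨a, _, rfl⟩ := Finset.mem_image.1 hk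
    simp [hM]
  rw [h1]
  refine h2.trans ?_
  rw [← Finset.prod_univ_sum (fun _ : Fin n => Finset.range M) (fun _ i => q ^ i)]
  have h3 : ∑ i ∈ Finset.range M, q ^ i ≤ (1 - q)⁻¹ := by
    rw [← tsum_geometric_of_lt_one hq0 hq1]
    exact (summable_geometric_of_lt_one hq0 hq1).sum_le_tsum _ fun i _ => pow_nonneg hq0 _
  simp only [Finset.prod_const, Finset.card_univ, Fintype.card_fin]
  exact pow_le_pow_left₀ (Finset.sum_nonneg fun i _ => pow_nonneg hq0 _) h3 _

theorem log_one_add_inv_pos {t : ℝ} (ht : 0 < t) : 0 < Real.log (1 + 1 / t) :=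
  Real.log_pos (by have := one_div_pos.2 ht; linarith)

theorem Tmp_pos {t : ℝ} (ht : 0 < t) : 0 < Tmp t := one_div_pos.2 (log_one_add_inv_pos ht)

/-- `T g(t) = t + T log (1 + t)`. -/
theorem Tmp_mul_gBose {t : ℝ} (ht : 0 < t) :
    Tmp t * gBose t = t + Tmp t * Real.log (1 + t) := by
  have h := log_one_add_inv_pos ht
  have h1 : Real.log (1 + 1 / t) = Real.log (t + 1) - Real.log t := by
    rw [← Real.log_div (by linarith) ht.ne']
    congr 1
    field_simp
  have h2 : gBose t = t * Real.log (1 + 1 / t) + Real.log (1 + t) := by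
    rw [h1, gBose, add_comm 1 t]; ring
  rw [h2, Tmp]
  generalize Real.log (1 + 1 / t) = b at h
  field_simp

/-- The Gibbs bound `T S(ρ) ≤ E(ρ) + n T log (1 + t)` for a density matrix on any finite set of
occupation tuples. -/
theorem gibbs_bound {n : ℕ} {α : Type*} [Fintype α] [DecidableEq α] {e : α → Occ n}
    (he : Function.Injective e) {ρ : Matrix α α ℂ} (hρ : ρ.PosSemidef) (htr : ρ.trace = 1)
    {t : ℝ} (ht : 0 < t) :
    Tmp t * (-N ρ) ≤ ∑ a, ((∑ j, e a j : ℕ) : ℝ) * (ρ a a).re + n * Tmp t * Real.log (1 + t) := by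
  set β := Real.log (1 + 1 / t) with hβ
  have hβ0 : 0 < β := log_one_add_inv_pos ht
  have h := neg_N_le_diag hρ (fun a => β * ((∑ j, e a j : ℕ) : ℝ) + n * Real.log (1 + t))
  have hq0 : 0 ≤ t / (t + 1) := by positivity
  have hq1 : t / (t + 1) < 1 := by rw [div_lt_one (by linarith)]; linarith
  have hexp : ∀ a, Real.exp (-(β * ((∑ j, e a j : ℕ) : ℝ) + n * Real.log (1 + t))) =
      (t / (t + 1)) ^ (∑ j, e a j) * ((1 + t)⁻¹) ^ n := by
    intro a
    rw [neg_add, Real.exp_add, mul_comm β, ← mul_neg, ← mul_neg, Real.exp_nat_mul,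
      Real.exp_nat_mul, Real.exp_neg, Real.exp_neg, hβ, Real.exp_log (by positivity),
      Real.exp_log (by positivity)]
    congr 2
    field_simp
  simp only [hexp] at h
  rw [← Finset.sum_mul] at h
  have h2 := sum_pow_occ_le he hq0 hq1
  have h3 : (1 - t / (t + 1))⁻¹ = 1 + t := by field_simp; ring
  rw [h3] at h2
  have h4 : (∑ a, (t / (t + 1)) ^ (∑ j, e a j)) * ((1 + t)⁻¹) ^ n ≤ 1 := by
    calc _ ≤ (1 + t) ^ n * ((1 + t)⁻¹) ^ n := mul_le_mul_of_nonneg_right h2 (by positivity)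
      _ = 1 := by rw [← mul_pow, mul_inv_cancel₀ (by linarith), one_pow]
  have htr' : ∑ a, (ρ a a).re = 1 := by
    have := congrArg Complex.re htr
    simpa [Matrix.trace, Complex.re_sum] using this
  have h5 : ∑ a, (β * ((∑ j, e a j : ℕ) : ℝ) + n * Real.log (1 + t)) * (ρ a a).re =
      β * ∑ a, ((∑ j, e a j : ℕ) : ℝ) * (ρ a a).re + n * Real.log (1 + t) := by
    simp only [add_mul, Finset.sum_add_distrib, mul_assoc, ← Finset.mul_sum, htr', mul_one]
  rw [h5, htr] at h
  simp only [Complex.one_re] at h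
  have hT : Tmp t = 1 / β := rfl
  have h6 : -N ρ ≤ β * ∑ a, ((∑ j, e a j : ℕ) : ℝ) * (ρ a a).re + n * Real.log (1 + t) := by
    linarith
  have h7 := mul_le_mul_of_nonneg_left h6 (Tmp_pos ht).le
  refine h7.trans (le_of_eq ?_)
  rw [hT]
  field_simp

end Crest.Agent.R331.Lim
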