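import Crest.Agent.R331.Defs
import Crest.Agent.R331.Lim.Basic

/-!
# Row 331, limit pieces: from boxes to balls
-/

set_option autoImplicit false

noncomputable section

namespace Crest.Agent.R331.Lim

open Matrix Crest.Agent.Lib.QEnt Crest.MathPhysics.Bosonic Crest.Quantum
open scoped ComplexOrder Kronecker

theorem ent_eq_neg_N {α : Type*} [Fintype α] [DecidableEq α] (A : Matrix α α ℂ) :
    ent A = -N A := by
  unfold ent N trf
  rw [← Multiset.sum_map_neg]
  congr 1
  refine Multiset.map_congr rfl fun z _ => ?_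
  simp [Real.negMulLog]

theorem ent_eq_vn {α : Type*} [Fintype α] [DecidableEq α] {A : Matrix α α ℂ}
    (hA : A.IsHermitian) : ent A = vnEntropy A := by
  rw [ent_eq_neg_N, vnEntropy_eq hA]

theorem Tm_eq_Tmp {t : ℝ} (ht : 0 < t) : Tm t = Tmp t := by
  unfold Tm Tmp
  rw [← Real.log_div (by linarith) ht.ne']
  congr 2
  field_simp

theorem Tm_pos {t : ℝ} (ht : 0 < t) : 0 < Tm t := by rw [Tm_eq_Tmp ht]; exact Tmp_pos ht

theorem ent_pad {α β : Type*} [Fintype α] [DecidableEq α] [Fintype β] [DecidableEq β]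
    (E : Matrix β α ℂ) (hE : Eᴴ * E = 1) (ρ : Matrix α α ℂ) : ent (E * ρ * Eᴴ) = ent ρ := by
  rw [ent_eq_neg_N, ent_eq_neg_N, N_pad E hE]

/-- `S(ρ + θ) ≤ S(ρ) + dim · (-θ log θ)`. -/
theorem ent_add_smul_one_le {α : Type*} [Fintype α] [DecidableEq α] {ρ : Matrix α α ℂ}
    (hρ : ρ.PosSemidef) {θ : ℝ} (hθ : 0 ≤ θ) :
    ent (ρ + (θ : ℂ) • (1 : Matrix α α ℂ)) ≤ ent ρ + Fintype.card α * Real.negMulLog θ := by
  have := N_add_smul_one_ge hρ hθ
  rw [ent_eq_neg_N, ent_eq_neg_N, add_comm ρ, Real.negMulLog]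
  linarith

theorem ent_nonneg {α : Type*} [Fintype α] [DecidableEq α] {ρ : Matrix α α ℂ} (hρ : Dens ρ) :
    0 ≤ ent ρ := by
  obtain ⟨U, l, h⟩ := exists_isDiag hρ.1.isHermitian
  unfold ent
  rw [h.trf]
  have hs : ∑ i, l i = 1 := by rw [← h.trace_re, hρ.2]; simp
  refine Finset.sum_nonneg fun i _ => Real.negMulLog_nonneg (h.nonneg hρ.1 i) ?_
  rw [← hs]
  exact Finset.single_le_sum (fun j _ => h.nonneg hρ.1 j) (Finset.mem_univ i)

/-- The Gibbs bound on a ball: `T (S - n g(t)) ≤ E - n t`. -/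
theorem gibbs_ball {n K : ℕ} {ρ : Mt n K} (hρ : Dens ρ) {t : ℝ} (ht : 0 < t) :
    Tm t * (ent ρ - n * gBose t) ≤ en ρ - n * t := by
  have h := gibbs_bound (e := fun k : Bl n K => k.1) Subtype.val_injective hρ.1 hρ.2 ht
  have h2 := Tmp_mul_gBose ht
  rw [Tm_eq_Tmp ht, ent_eq_neg_N]
  have h3 : en ρ = ∑ a : Bl n K, ((∑ j, a.1 j : ℕ) : ℝ) * (ρ a a).re := rfl
  rw [h3]
  have h4 : Tmp t * (n * gBose t) = n * t + n * Tmp t * Real.log (1 + t) := by
    rw [mul_left_comm, h2]; ring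
  rw [mul_sub, h4]
  linarith

/-- The inclusion of a box in a large ball. -/
def eB {n K L : ℕ} (h : n * K ≤ L) (k : Box n K) : Bl n L :=
  ⟨fun j => k j, by
    have : tot (fun j => (k j : ℕ)) ≤ ∑ _j : Fin n, K :=
      Finset.sum_le_sum fun j _ => Nat.lt_succ_iff.1 (k j).2
    simp only [Finset.sum_const, Finset.card_univ, Fintype.card_fin, smul_eq_mul] at this
    omega⟩

theorem eB_inj {n K L : ℕ} (h : n * K ≤ L) : Function.Injective (eB h) := by
  intro k l hkl
  funext j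
  have := congrFun (congrArg Subtype.val hkl) j
  exact Fin.ext this

theorem eB_tot_le {n K L : ℕ} (h : n * K ≤ L) (k : Box n K) : tot (eB h k).1 ≤ n * K := by
  have : tot (fun j => (k j : ℕ)) ≤ ∑ _j : Fin n, K :=
    Finset.sum_le_sum fun j _ => Nat.lt_succ_iff.1 (k j).2
  simpa [eB] using this

theorem exists_eB {n K L : ℕ} (h : n * K ≤ L) {p : Bl n L} (hp : ∀ j, p.1 j ≤ K) :
    ∃ k, eB h k = p :=
  ⟨fun j => ⟨p.1 j, Nat.lt_succ_of_le (hp j)⟩, rfl⟩

/-- The box beam splitter as a matrix. -/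
def boxU (η : ℝ) (n K : ℕ) : Matrix (Box n (2 * K) × Box n (2 * K)) (Box n K × Box n K) ℂ :=
  Matrix.of fun pq ab => ((bsAmpN η ab.1 ab.2 pq.1 pq.2 : ℝ) : ℂ)

theorem out_boxU (η : ℝ) {n K : ℕ} (ρA ρB : Matrix (Box n K) (Box n K) ℂ) :
    out (boxU η n K) ρA ρB = bsOutput η ρA ρB := by
  ext p p'
  simp only [out, ptr2, bsOutput, of_apply, Matrix.mul_apply, conjTranspose_apply, boxU,
    Fintype.sum_prod_type, kroneckerMap_apply, Finset.sum_mul, Complex.star_def,
    Complex.conj_ofReal]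
  refine Finset.sum_congr rfl fun q _ => ?_
  rw [Finset.sum_comm]
  conv_lhs => enter [2, l']; rw [Finset.sum_comm]
  rw [Finset.sum_comm]
  refine Finset.sum_congr rfl fun k _ => ?_
  conv_lhs => enter [2, l']; rw [Finset.sum_comm]
  rw [Finset.sum_comm]
  refine Finset.sum_congr rfl fun l _ => ?_
  rw [Finset.sum_comm]
  refine Finset.sum_congr rfl fun k' _ => Finset.sum_congr rfl fun l' _ => ?_
  ring

theorem two_mul_le {n K L : ℕ} (h : n * K ≤ L) : n * (2 * K) ≤ 2 * L := by nlinarith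

theorem mul_inc_apply {α β γ : Type*} [Fintype β] [DecidableEq β] (e : α → β)
    (M : Matrix γ β ℂ) (c : γ) (a : α) : (M * inc e) c a = M c (e a) := by
  simp [Matrix.mul_apply, inc]

theorem inc_kron {α β α' β' : Type*} [DecidableEq β] [DecidableEq β'] (e : α → β) (e' : α' → β') :
    inc e ⊗ₖ inc e' = inc (Prod.map e e') := by
  ext ⟨b, b'⟩ ⟨a, a'⟩
  simp only [kroneckerMap_apply, inc, Prod.map, Prod.mk.injEq]
  by_cases h : e a = b <;> by_cases h' : e' a' = b' <;> simp [h, h']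

theorem inc_mul_apply_img {α β γ : Type*} [Fintype α] [DecidableEq β] {e : α → β}
    (he : Function.Injective e) (M : Matrix α γ ℂ) (a : α) (c : γ) :
    (inc e * M) (e a) c = M a c := by
  simp only [Matrix.mul_apply, inc]
  rw [Finset.sum_eq_single a]
  · simp
  · intro b _ hb
    have : e b ≠ e a := fun h => hb (he h)
    simp [this]
  · simp

theorem inc_mul_apply_not {α β γ : Type*} [Fintype α] [DecidableEq β] {e : α → β}
    (M : Matrix α γ ℂ) {b : β} (hb : ∀ a, e a ≠ b) (c : γ) : (inc e * M) b c = 0 := by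
  simp [Matrix.mul_apply, inc, hb]

theorem bsU_inc (η : ℝ) {n K L : ℕ} (h : n * K ≤ L) :
    bsU η n L * (inc (eB h) ⊗ₖ inc (eB h)) =
      (inc (eB (two_mul_le h)) ⊗ₖ inc (eB (two_mul_le h))) * boxU η n K := by
  rw [inc_kron, inc_kron]
  ext pq ab
  rw [mul_inc_apply]
  by_cases hpq : ∃ x, Prod.map (eB (two_mul_le h)) (eB (two_mul_le h)) x = pq
  · obtain ⟨x, rfl⟩ := hpq
    rw [inc_mul_apply_img ((eB_inj _).prodMap (eB_inj _))]
    rfl
  · push Not at hpq
    rw [inc_mul_apply_not _ hpq]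
    simp only [bsU, of_apply, Complex.ofReal_eq_zero, ampOcc]
    by_contra hne
    have hj : ∀ j, pq.1.1 j + pq.2.1 j ≤ 2 * K := by
      intro j
      have h1 := Finset.prod_ne_zero_iff.1 hne j (Finset.mem_univ j)
      unfold bsAmp at h1
      have h2 : pq.1.1 j + pq.2.1 j = (ab.1 j : ℕ) + (ab.2 j : ℕ) := by
        by_contra h3
        exact h1 (if_neg h3)
      have := (ab.1 j).2
      have := (ab.2 j).2
      omega
    obtain ⟨p, hp⟩ := exists_eB (two_mul_le h) (p := pq.1) fun j => by have := hj j; omega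
    obtain ⟨q, hq⟩ := exists_eB (two_mul_le h) (p := pq.2) fun j => by have := hj j; omega
    exact hpq (p, q) (Prod.ext hp hq)

theorem ptr2_pad {γ δ γ' δ' : Type*} [Fintype γ] [Fintype δ] [Fintype δ'] [DecidableEq δ]
    (E : Matrix γ' γ ℂ) (F : Matrix δ' δ ℂ) (hF : Fᴴ * F = 1) (M : Matrix (γ × δ) (γ × δ) ℂ) :
    ptr2 ((E ⊗ₖ F) * M * (E ⊗ₖ F)ᴴ) = E * ptr2 M * Eᴴ := by
  ext i j
  have hF' : ∀ d d', ∑ e, F e d * star (F e d') = if d = d' then 1 else 0 := by
    intro d d'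
    have := congrFun (congrFun hF d') d
    simp only [Matrix.mul_apply, conjTranspose_apply, one_apply] at this
    rw [show (if d = d' then (1 : ℂ) else 0) = if d' = d then 1 else 0 by simp [eq_comm], ← this]
    exact Finset.sum_congr rfl fun e _ => mul_comm _ _
  simp only [ptr2, of_apply, Matrix.mul_apply, conjTranspose_apply, Fintype.sum_prod_type,
    kroneckerMap_apply, Finset.sum_mul, Finset.mul_sum, star_mul']
  rw [Finset.sum_comm]
  refine Finset.sum_congr rfl fun c' _ => ?_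
  calc ∑ e, ∑ d', ∑ c, ∑ d, E i c * F e d * M (c, d) (c', d') * (star (E j c') * star (F e d'))
      = ∑ d', ∑ c, ∑ d, E i c * M (c, d) (c', d') * star (E j c') *
          ∑ e, F e d * star (F e d') := by
        rw [Finset.sum_comm]
        refine Finset.sum_congr rfl fun d' _ => ?_
        rw [Finset.sum_comm]
        refine Finset.sum_congr rfl fun c _ => ?_
        rw [Finset.sum_comm]
        refine Finset.sum_congr rfl fun d _ => ?_
        rw [Finset.mul_sum]
        exact Finset.sum_congr rfl fun e _ => by ring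
    _ = ∑ c, ∑ d, E i c * M (c, d) (c', d) * star (E j c') := by
        rw [Finset.sum_comm]
        refine Finset.sum_congr rfl fun c _ => ?_
        rw [Finset.sum_comm]
        refine Finset.sum_congr rfl fun d _ => ?_
        simp only [hF']
        simp

/-- The output of padded inputs is the padded output. -/
theorem out_pad (η : ℝ) {n K L : ℕ} (h : n * K ≤ L) (ρA ρB : Matrix (Box n K) (Box n K) ℂ) :
    out (bsU η n L) (inc (eB h) * ρA * (inc (eB h))ᴴ) (inc (eB h) * ρB * (inc (eB h))ᴴ) =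
      inc (eB (two_mul_le h)) * bsOutput η ρA ρB * (inc (eB (two_mul_le h)))ᴴ := by
  rw [← out_boxU, out, out, ← ptr2_pad _ _ (inc_iso (eB_inj (two_mul_le h)))]
  congr 1
  rw [mul_kronecker_mul, mul_kronecker_mul, ← conjTranspose_kronecker]
  have h1 := bsU_inc η h
  have h2 := congrArg conjTranspose h1
  rw [conjTranspose_mul, conjTranspose_mul] at h2
  calc bsU η n L * (inc (eB h) ⊗ₖ inc (eB h) * ρA ⊗ₖ ρB * (inc (eB h) ⊗ₖ inc (eB h))ᴴ) *
        (bsU η n L)ᴴ
      = (bsU η n L * (inc (eB h) ⊗ₖ inc (eB h))) * ρA ⊗ₖ ρB *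
          ((inc (eB h) ⊗ₖ inc (eB h))ᴴ * (bsU η n L)ᴴ) := by simp only [Matrix.mul_assoc]
    _ = _ := by rw [h1, h2]; simp only [Matrix.mul_assoc]

theorem dens_pad {α β : Type*} [Fintype α] [DecidableEq α] [Fintype β] (E : Matrix β α ℂ)
    (hE : Eᴴ * E = 1) {ρ : Matrix α α ℂ} (h : IsDensity ρ) : Dens (E * ρ * Eᴴ) :=
  ⟨pad_psd E h.1, by rw [pad_trace E hE, h.2]⟩

theorem ptr2_psd {γ δ : Type*} [Fintype γ] [Fintype δ] {M : Matrix (γ × δ) (γ × δ) ℂ}
    (hM : M.PosSemidef) : (ptr2 M).PosSemidef := by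
  have : ptr2 M = ∑ e : δ, M.submatrix (fun i => (i, e)) (fun i => (i, e)) := by
    ext i j
    simp [ptr2, Matrix.sum_apply]
  rw [this]
  exact Matrix.posSemidef_sum _ fun e _ => hM.submatrix _

theorem out_psd {α β γ δ : Type*} [Fintype α] [Fintype β] [Fintype γ] [Fintype δ]
    (U : Matrix (γ × δ) (α × β) ℂ) {X : Matrix α α ℂ} {Y : Matrix β β ℂ} (hX : X.PosSemidef)
    (hY : Y.PosSemidef) : (out U X Y).PosSemidef :=
  ptr2_psd ((hX.kronecker hY).mul_mul_conjTranspose_same U)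

/-- Expectations of monotone functions of the photon number in a padded state. -/
theorem ev_pad_le {n K L : ℕ} (h : n * K ≤ L) {ρ : Matrix (Box n K) (Box n K) ℂ}
    (hρ : IsDensity ρ) {f : ℕ → ℝ} (hf : Monotone f) :
    ev f (inc (eB h) * ρ * (inc (eB h))ᴴ) ≤ f (n * K) := by
  unfold ev
  rw [sum_diag_pad (eB_inj h) ρ (fun k => f (tot k.1))]
  have htr : ∑ a, (ρ a a).re = 1 := by
    have := congrArg Complex.re hρ.2
    simpa [Matrix.trace, Complex.re_sum] using this
  calc _ ≤ ∑ a, f (n * K) * (ρ a a).re := by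
        refine Finset.sum_le_sum fun a _ => mul_le_mul_of_nonneg_right (hf (eB_tot_le h a)) ?_
        exact (Complex.nonneg_iff.1 (hρ.1.diag_nonneg (i := a))).1
    _ = f (n * K) := by rw [← Finset.mul_sum, htr, mul_one]

end Crest.Agent.R331.Lim

end
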