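import Crest.Agent.R331.Lim.Emb

/-!
# Row 331: from the bound on the penalised functional to `S_FD`
-/

set_option autoImplicit false

noncomputable section

namespace Crest.Agent.R331.Lim

open Matrix Crest.Agent.Lib.QEnt Crest.MathPhysics.Bosonic Crest.Quantum
open scoped ComplexOrder Kronecker

theorem pen_mono : Monotone pen := by
  intro m m' h
  refine Finset.sum_le_sum_of_subset_of_nonneg (Finset.range_mono (by omega)) fun i _ _ => ?_
  positivity

theorem pen_nonneg (m : ℕ) : 0 ≤ pen m := Finset.sum_nonneg fun i _ => by positivity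

/-- If the penalised functional is at most `δ` for parameters at most `δ` and arbitrarily large
cut-offs, the finite-dimensional inequality follows. -/
theorem fd_of_phi
    (H : ∀ (n : ℕ) (η tA tB : ℝ), 0 < η → η < 1 → 0 < tA → 0 < tB → ∀ δ : ℝ, 0 < δ →
      ∃ d : ℝ, 0 ≤ d ∧ d ≤ δ ∧ ∀ K0 : ℕ, ∃ K : ℕ, K0 ≤ K ∧ ∃ ε θ : ℝ, 0 ≤ ε ∧ ε ≤ δ ∧ 0 ≤ θ ∧
        Fintype.card (Bl n (2 * K)) * Real.negMulLog θ ≤ δ ∧
        ∀ ρA ρB : Mt n K, Dens ρA → Dens ρB → Phi η d ε θ tA tB ρA ρB ≤ δ) : S_FD := by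
  intro n K η tA tB h0 h1 htA htB ρA ρB hA hB
  have htC : 0 < η * tA + (1 - η) * tB := by
    have := mul_pos h0 htA
    have := mul_pos (sub_pos.2 h1) htB
    linarith
  rw [← Tm_eq_Tmp htA, ← Tm_eq_Tmp htB, ← Tm_eq_Tmp htC]
  set X := η * Tm tA * (vnEntropy ρA - n * gBose tA) +
    (1 - η) * Tm tB * (vnEntropy ρB - n * gBose tB) with hX
  set TC := Tm (η * tA + (1 - η) * tB) with hTC
  have hTC0 : 0 < TC := Tm_pos htC
  set C := 1 + TC + |X| + ((n * K : ℕ) : ℝ) + pen (n * K) with hC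
  have hC0 : 0 < C := by
    have := pen_nonneg (n * K)
    positivity
  refine le_of_forall_pos_le_add fun ι hι => ?_
  obtain ⟨d, hd0, hd, hK⟩ := H n η tA tB h0 h1 htA htB (ι / C) (div_pos hι hC0)
  obtain ⟨L, hL, ε, θ, hε0, hε, hθ, hcard, hPhi⟩ := hK (n * K)
  have hE := inc_iso (eB_inj hL)
  have h := hPhi _ _ (dens_pad _ hE hA) (dens_pad _ hE hB)
  have hout : (bsOutput η ρA ρB).PosSemidef := by
    rw [← out_boxU]; exact out_psd _ hA.1 hB.1
  have hsig := ent_add_smul_one_le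
    (pad_psd (inc (eB (two_mul_le hL))) hout) hθ
  rw [ent_pad _ (inc_iso (eB_inj (two_mul_le hL))), ent_eq_vn hout.isHermitian] at hsig
  unfold Phi sig at h
  rw [out_pad, ent_pad _ hE, ent_pad _ hE, ent_eq_vn hA.1.isHermitian,
    ent_eq_vn hB.1.isHermitian, ← hX, ← hTC] at h
  have e1 := ev_pad_le hL hA (f := fun m => (m : ℝ)) fun _ _ h => Nat.cast_le.2 h
  have e2 := ev_pad_le hL hB (f := fun m => (m : ℝ)) fun _ _ h => Nat.cast_le.2 h
  have e3 := ev_pad_le hL hA pen_mono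
  have e4 := ev_pad_le hL hB pen_mono
  unfold en at h
  set EA := ev (fun m => (m : ℝ)) (inc (eB hL) * ρA * (inc (eB hL))ᴴ)
  set EB := ev (fun m => (m : ℝ)) (inc (eB hL) * ρB * (inc (eB hL))ᴴ)
  set PA := ev pen (inc (eB hL) * ρA * (inc (eB hL))ᴴ)
  set PB := ev pen (inc (eB hL) * ρB * (inc (eB hL))ᴴ)
  set S := ent (inc (eB (two_mul_le hL)) * bsOutput η ρA ρB * (inc (eB (two_mul_le hL)))ᴴ +
    (θ : ℂ) • (1 : Mt n (2 * L)))
  set δ := ι / C with hδ
  have hδ0 : 0 < δ := div_pos hι hC0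
  have h1' : 0 < 1 - η := sub_pos.2 h1
  have hn : (0 : ℝ) ≤ n := Nat.cast_nonneg n
  have f1 : η * (EA - n * tA) + (1 - η) * (EB - n * tB) ≤ ((n * K : ℕ) : ℝ) := by
    have := mul_le_mul_of_nonneg_left e1 h0.le
    have := mul_le_mul_of_nonneg_left e2 h1'.le
    have := mul_nonneg h0.le (mul_nonneg hn htA.le)
    have := mul_nonneg h1'.le (mul_nonneg hn htB.le)
    nlinarith
  have f2 : η * PA + (1 - η) * PB ≤ pen (n * K) := by
    have := mul_le_mul_of_nonneg_left e3 h0.le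
    have := mul_le_mul_of_nonneg_left e4 h1'.le
    nlinarith
  have f3 : d * (η * (EA - n * tA) + (1 - η) * (EB - n * tB)) ≤ δ * ((n * K : ℕ) : ℝ) :=
    (mul_le_mul_of_nonneg_left f1 hd0).trans
      (mul_le_mul_of_nonneg_right hd (Nat.cast_nonneg _))
  have f4 : ε * (η * PA + (1 - η) * PB) ≤ δ * pen (n * K) :=
    (mul_le_mul_of_nonneg_left f2 hε0).trans (mul_le_mul_of_nonneg_right hε (pen_nonneg _))
  have f5 : -(δ * |X|) ≤ d * X := by
    have := neg_abs_le X
    have := abs_nonneg X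
    nlinarith
  have f6 : TC * S ≤ TC * vnEntropy (bsOutput η ρA ρB) + TC * δ := by
    rw [← mul_add]
    exact mul_le_mul_of_nonneg_left (by linarith) hTC0.le
  have f7 : δ * C = ι := by rw [hδ]; field_simp
  rw [hC] at f7
  nlinarith

end Crest.Agent.R331.Lim

end
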